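import Vale.Agent.Lib.P183.DataS4

/-!
The seven-element lattice made of two overlapping pentagons is the congruence lattice of a finite
algebra.
-/

namespace Vale.Agent.Results.P183.OverlappingPentagons

open Vale.Agent.Lib.P183

/-- The seven elements of the lattice. -/
inductive Seven
  | bot | a | b | c | d | e | top

/-- The order relation of the lattice, whose covering pairs are
`bot < a < e < top`, `bot < b < d < e` and `b < c < top`. -/
def Seven.leB : Seven → Seven → Bool
  | .bot, _ => true
  | _, .top => true
  | .a, .a => true
  | .a, .e => true
  | .b, .b => true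
  | .b, .c => true
  | .b, .d => true
  | .b, .e => true
  | .c, .c => true
  | .d, .d => true
  | .d, .e => true
  | .e, .e => true
  | _, _ => false

/-- The partial order given by the relation above. -/
instance : PartialOrder Seven where
  le x y := Seven.leB x y = true
  le_refl x := by cases x <;> rfl
  le_trans x y z := by cases x <;> cases y <;> cases z <;> simp [Seven.leB]
  le_antisymm x y := by cases x <;> cases y <;> simp [Seven.leB]

/-- Index of an element in the list of labellings of the 24-point algebra. -/
def code : Seven → Nat
  | .bot => 0
  | .a => 1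
  | .b => 2
  | .c => 3
  | .d => 4
  | .e => 5
  | .top => 6

theorem code_lt (x : Seven) : code x < s4rep.thetas.length := by
  cases x <;> decide

theorem le_iff (x y : Seven) :
    Seven.leB x y = Vale.Agent.Lib.P183.leB 24 (s4rep.thetas.getD (code x) [])
      (s4rep.thetas.getD (code y) []) := by
  cases x <;> cases y <;> decide +kernel

/-- The lattice with covering pairs `bot < a < e < top`, `bot < b < d < e`, `b < c < top` is
isomorphic to the full congruence lattice of a finite algebra. -/
theorem result : Representable Seven := by
  refine representable_of_check s4rep s4rep_good (fun x => s4rep.thetas.getD (code x) []) ?_ ?_ ?_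
  · intro x
    have h := code_lt x
    show s4rep.thetas.getD (code x) [] ∈ s4rep.thetas
    rw [List.getD_eq_getElem _ _ h]
    exact List.getElem_mem h
  · intro θ hθ
    obtain ⟨k, hk, rfl⟩ := List.mem_iff_getElem.mp hθ
    have hk7 : k < 7 := hk
    have key : ∀ k (hk : k < 7), ∃ x : Seven, code x = k := by
      intro k hk
      match k, hk with
      | 0, _ => exact ⟨.bot, rfl⟩
      | 1, _ => exact ⟨.a, rfl⟩
      | 2, _ => exact ⟨.b, rfl⟩
      | 3, _ => exact ⟨.c, rfl⟩
      | 4, _ => exact ⟨.d, rfl⟩
      | 5, _ => exact ⟨.e, rfl⟩
      | 6, _ => exact ⟨.top, rfl⟩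
    obtain ⟨x, hx⟩ := key k hk7
    refine ⟨x, ?_⟩
    show s4rep.thetas.getD (code x) [] = _
    rw [hx, List.getD_eq_getElem _ _ hk]
  · intro x y
    show Seven.leB x y = true ↔ _
    rw [le_iff x y]
    exact Iff.rfl

end Vale.Agent.Results.P183.OverlappingPentagons
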